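import Vale.Agent.P163N.Main

open MeasureTheory Vale.Agent.P163

theorem Vale.Agent.Results.P163.AllN.result (n : ℕ) (hn : 3 ≤ n) (β : ℝ) (hβ : 0 < β) :
    ∃ C m : ℝ, 0 < m ∧ ∀ μ : Measure (Site → Spin n), IsState n β μ → ∀ x y : Site,
      ∫ σ, inner ℝ (σ x).1 (σ y).1 ∂μ ≤
        C * Real.exp (-m * Real.sqrt (((x.1 : ℝ) - y.1) ^ 2 + ((x.2 : ℝ) - y.2) ^ 2)) :=
  Vale.Agent.P163N.main n hn β hβ
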